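import Vale.Agent.P183.R2.H668.KW.Spec

set_option autoImplicit false

/-! Row C: lattice orders are coded by graphs without four-cycles. -/

namespace Vale.Agent.P183.R2.H682.KWC

open Vale.Agent.P183.R2.H668.KW

/-- The bipartite cover graph of an order. -/
def cg {α : Type} [PartialOrder α] : SimpleGraph (α ⊕ α) where
  Adj a b := match a, b with
    | Sum.inl x, Sum.inr y => x ⋖ y
    | Sum.inr y, Sum.inl x => x ⋖ y
    | _, _ => False
  symm := ⟨by rintro (a | a) (b | b) h <;> exact h⟩
  loopless := ⟨by rintro (a | a) h <;> exact h⟩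

theorem cg_lr {α : Type} [PartialOrder α] (x y : α) :
    (cg : SimpleGraph (α ⊕ α)).Adj (Sum.inl x) (Sum.inr y) ↔ x ⋖ y := Iff.rfl

theorem cg_free {α : Type} [Lattice α] : C4Free (cg : SimpleGraph (α ⊕ α)) := by
  rintro (a | a) (b | b) (c | c) (d | d) hne h1 h2 h3 h4
  all_goals first
    | exact h1.elim
    | exact h2.elim
    | exact h3.elim
    | exact h4.elim
    | skip
  · have hab : a ≠ b := fun h => hne (by rw [h])
    have e1 := WCovBy.sup_eq (CovBy.wcovBy h1) (CovBy.wcovBy h2) hab
    have e2 := WCovBy.sup_eq (CovBy.wcovBy h3) (CovBy.wcovBy h4) hab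
    rw [← e1, ← e2]
  · have hab : a ≠ b := fun h => hne (by rw [h])
    have e1 := WCovBy.inf_eq (CovBy.wcovBy h1) (CovBy.wcovBy h2) hab
    have e2 := WCovBy.inf_eq (CovBy.wcovBy h3) (CovBy.wcovBy h4) hab
    rw [← e1, ← e2]

theorem le_iff {α : Type} [Finite α] [Lattice α] (x y : α) :
    x ≤ y ↔ Relation.ReflTransGen (fun a b : α => a ⋖ b) x y := by
  classical
  let _ := Fintype.ofFinite α
  let _ : LocallyFiniteOrder α := Fintype.toLocallyFiniteOrder
  exact le_iff_reflTransGen_covBy

theorem rowC : StC := by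
  intro n κ _ Λ hΛ
  have hf : ∀ i : κ, C4Free (@cg (Fin n) (Λ i).toPartialOrder) := fun i =>
    @cg_free (Fin n) (Λ i)
  let f : κ → {G : SimpleGraph (Fin n ⊕ Fin n) | C4Free G} := fun i =>
    ⟨@cg (Fin n) (Λ i).toPartialOrder, hf i⟩
  have hinj : Function.Injective f := by
    intro i j hij
    have h : @cg (Fin n) (Λ i).toPartialOrder = @cg (Fin n) (Λ j).toPartialOrder :=
      congrArg Subtype.val hij
    apply hΛ
    intro x y
    have hc : ∀ a b : Fin n, @CovBy _ (Λ i).toLT a b ↔ @CovBy _ (Λ j).toLT a b := by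
      intro a b
      have := congrArg (fun G : SimpleGraph (Fin n ⊕ Fin n) => G.Adj (Sum.inl a) (Sum.inr b)) h
      exact iff_of_eq this
    have h1 := @le_iff (Fin n) _ (Λ i) x y
    have h2 := @le_iff (Fin n) _ (Λ j) x y
    have h3 : (fun a b : Fin n => @CovBy _ (Λ i).toLT a b) =
        (fun a b : Fin n => @CovBy _ (Λ j).toLT a b) := by
      funext a b
      exact propext (hc a b)
    refine h1.trans (Iff.trans ?_ h2.symm)
    rw [h3]
  rw [← Nat.card_coe_set_eq]
  exact Nat.card_le_card_of_injective f hinj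

end Vale.Agent.P183.R2.H682.KWC
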